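import Vale.Agent.P233.N2.RA.IfHK
import Vale.Agent.P233.H183.Unit
import Vale.Agent.P233.H886.CDelta

/-! P233, RCDA, block K1S (helper368): the contraction tested with two normalised indicator
functions. -/

set_option linter.all false

open MeasureTheory Filter Topology Set
open scoped ENNReal NNReal MeasureTheory

universe u

namespace Vale.Agent.P233.N2.H368.RK1

open Vale.Agent.P233.N2.RA

section abs

variable {M : Type*} [MeasurableSpace M] {m : Measure M}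

theorem int_test {φ : M → ℝ} {b : ℝ} (hφ : AEStronglyMeasurable φ m) (hb : ∀ x, |φ x| ≤ b)
    {f : M →ₘ[m] ℝ} (hf : MemLp f 1 m) : Integrable (fun x => φ x * f x) m :=
  (int_of_mem hf).bdd_mul (c := b) hφ (Eventually.of_forall fun x => hb x)

theorem test_sub {φ : M → ℝ} {b : ℝ} (hφ : AEStronglyMeasurable φ m) (hb : ∀ x, |φ x| ≤ b)
    {f g : M →ₘ[m] ℝ} (hf : MemLp f 1 m) (hg : MemLp g 1 m) :
    |∫ x, φ x * f x ∂m - ∫ x, φ x * g x ∂m| ≤ b * ∫ x, |(f - g) x| ∂m := by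
  have hfg : MemLp (f - g : M →ₘ[m] ℝ) 1 m := mem_sub hf hg
  rw [← integral_sub (int_test hφ hb hf) (int_test hφ hb hg), ← integral_const_mul]
  refine (abs_integral_le_integral_abs).trans ?_
  refine integral_mono_ae ?_ ((int_of_mem hfg).abs.const_mul b) ?_
  · exact ((int_test hφ hb hf).sub (int_test hφ hb hg)).abs
  · filter_upwards [sub_ae f g] with x hx
    rw [← mul_sub, abs_mul, hx]
    exact mul_le_mul_of_nonneg_right (hb x) (abs_nonneg _)

theorem test_le {φ : M → ℝ} {b G : ℝ} (hφ : AEStronglyMeasurable φ m) (hb : ∀ x, |φ x| ≤ b)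
    {h : M →ₘ[m] ℝ} (h1 : MemLp h 1 m) (h0 : 0 ≤ h) (hI : I h = 1)
    (hG : ∀ᵐ x ∂m, h x ≠ 0 → φ x ≤ G) : ∫ x, φ x * h x ∂m ≤ G := by
  have e : G = ∫ x, G * h x ∂m := by
    rw [integral_const_mul]
    have : ∫ x, h x ∂m = 1 := hI
    rw [this, mul_one]
  rw [e]
  refine integral_mono_ae (int_test hφ hb h1) ((int_of_mem h1).const_mul G) ?_
  filter_upwards [hG, nonneg_iff_ae.1 h0] with x a1 a2
  by_cases hx : h x = 0
  · rw [hx]; simp
  · exact mul_le_mul_of_nonneg_right (a1 hx) a2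

/-- the upper bound of the double integral -/
theorem dbl_le {c : M → M → ℝ} {δ G ε ε' : ℝ} (hδ : 0 ≤ δ) (hc0 : ∀ x y, 0 ≤ c x y)
    (hcδ : ∀ x y, c x y ≤ δ) (hcm : ∀ x, AEStronglyMeasurable (fun y => c x y) m)
    (hcx : ∀ σ : M →ₘ[m] ℝ, MemLp σ 1 m → AEStronglyMeasurable (fun x => ∫ y, c x y * σ y ∂m) m)
    {h h' ρ σ : M →ₘ[m] ℝ} (h1 : MemLp h 1 m) (h0 : 0 ≤ h) (hI : I h = 1)
    (h1' : MemLp h' 1 m) (h0' : 0 ≤ h') (hI' : I h' = 1) {A A' : Set M}
    (hA : ∀ᵐ x ∂m, h x ≠ 0 → x ∈ A) (hA' : ∀ᵐ x ∂m, h' x ≠ 0 → x ∈ A')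
    (hG : ∀ x ∈ A, ∀ y ∈ A', c x y ≤ G)
    (r1 : MemLp ρ 1 m) (r0 : 0 ≤ ρ) (s1 : MemLp σ 1 m) (s0 : 0 ≤ σ) (sI : I σ = 1)
    (hε : ∫ x, |(ρ - h) x| ∂m ≤ ε) (hε' : ∫ x, |(σ - h') x| ∂m ≤ ε') :
    ∫ x, ∫ y, c x y * (ρ x * σ y) ∂m ∂m ≤ G + δ * (ε + ε') := by
  have hcb : ∀ x y, |c x y| ≤ δ := fun x y => by rw [abs_of_nonneg (hc0 x y)]; exact hcδ x y
  set g : M → ℝ := fun x => ∫ y, c x y * σ y ∂m with hg
  have e1 : ∀ x, ∫ y, c x y * (ρ x * σ y) ∂m = g x * ρ x := by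
    intro x
    simp only [hg]
    rw [← integral_mul_const]
    refine integral_congr_ae (Eventually.of_forall fun y => ?_)
    simp only
    ring
  have e2 : ∫ x, ∫ y, c x y * (ρ x * σ y) ∂m ∂m = ∫ x, g x * ρ x ∂m :=
    integral_congr_ae (Eventually.of_forall e1)
  rw [e2]
  have hg0 : ∀ x, 0 ≤ g x := fun x => by
    refine integral_nonneg_of_ae ?_
    filter_upwards [nonneg_iff_ae.1 s0] with y hy
    exact mul_nonneg (hc0 x y) hy
  have hgδ : ∀ x, g x ≤ δ := fun x =>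
    test_le (hcm x) (hcb x) s1 s0 sI (Eventually.of_forall fun y _ => hcδ x y)
  have hgb : ∀ x, |g x| ≤ δ := fun x => by rw [abs_of_nonneg (hg0 x)]; exact hgδ x
  have hgm : AEStronglyMeasurable g m := hcx σ s1
  have hgA : ∀ x ∈ A, g x ≤ G + δ * ε' := by
    intro x hx
    have b1 := test_sub (hcm x) (hcb x) s1 h1'
    have b2 : ∫ y, c x y * h' y ∂m ≤ G :=
      test_le (hcm x) (hcb x) h1' h0' hI' (hA'.mono fun y hy hy' => hG x hx y (hy hy'))
    have b3 := (abs_le.1 b1).2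
    have b4 : δ * ∫ y, |(σ - h') y| ∂m ≤ δ * ε' := mul_le_mul_of_nonneg_left hε' hδ
    simp only [hg]
    linarith
  have c1 := test_sub hgm hgb r1 h1
  have c2 : ∫ x, g x * h x ∂m ≤ G + δ * ε' :=
    test_le hgm hgb h1 h0 hI (hA.mono fun x hx hx' => hgA x (hx hx'))
  have c3 := (abs_le.1 c1).2
  have c4 : δ * ∫ x, |(ρ - h) x| ∂m ≤ δ * ε := mul_le_mul_of_nonneg_left hε hδ
  nlinarith

end abs

section space

variable {M : Type u} [MetricSpace M] [MeasurableSpace M] [BorelSpace M] {m : Measure M}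
  {n : ℕ} {K : ℝ} {θ : M → ℝ}

omit [MetricSpace M] [BorelSpace M] in
theorem ind_ae {A : Set M} (hA : MeasurableSet A) :
    ⇑(cl m (A.indicator fun _ => (1 : ℝ))) =ᵐ[m] A.indicator fun _ => (1 : ℝ) := by
  have h : AEStronglyMeasurable (A.indicator fun _ => (1 : ℝ)) m :=
    (measurable_const.indicator hA).aestronglyMeasurable
  unfold cl
  rw [dif_pos h]
  exact AEEqFun.coeFn_mk _ h

omit [MetricSpace M] [BorelSpace M] in
theorem ind_mem {A : Set M} (hA : MeasurableSet A) (hfin : m A ≠ ∞) (p : ℝ≥0∞) :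
    MemLp (cl m (A.indicator fun _ => (1 : ℝ))) p m :=
  (memLp_congr_ae (ind_ae hA)).2 (memLp_indicator_const p hA 1 (Or.inr hfin))

omit [MetricSpace M] [BorelSpace M] in
theorem ind_I {A : Set M} (hA : MeasurableSet A) :
    I (cl m (A.indicator fun _ => (1 : ℝ))) = (m A).toReal := by
  unfold I
  rw [integral_congr_ae (ind_ae hA), integral_indicator_const _ hA]
  simp [Measure.real]

/-- normalised indicator -/
noncomputable def nind (m : Measure M) (A : Set M) : M →ₘ[m] ℝ :=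
  (m A).toReal⁻¹ • cl m (A.indicator fun _ => (1 : ℝ))

structure IsNind (m : Measure M) (A : Set M) (h : M →ₘ[m] ℝ) : Prop where
  m1 : MemLp h 1 m
  m2 : MemLp h 2 m
  mt : MemLp h ∞ m
  nonneg : 0 ≤ h
  mass : I h = 1
  supp : ∀ᵐ x ∂m, h x ≠ 0 → x ∈ A

omit [MetricSpace M] [BorelSpace M] in
theorem nind_spec {A : Set M} (hA : MeasurableSet A) (hfin : m A ≠ ∞) (h0 : m A ≠ 0) :
    IsNind m A (nind m A) := by
  have hpos : 0 < (m A).toReal := ENNReal.toReal_pos h0 hfin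
  refine ⟨mem_smul _ (ind_mem hA hfin 1), mem_smul _ (ind_mem hA hfin 2),
    mem_smul _ (ind_mem hA hfin ∞), ?_, ?_, ?_⟩
  · rw [nonneg_iff_ae]
    filter_upwards [smul_ae (cl m (A.indicator fun _ => (1 : ℝ))) (m A).toReal⁻¹, ind_ae hA]
      with x a1 a2
    unfold nind
    rw [a1, a2]
    exact mul_nonneg (inv_nonneg.2 hpos.le) (indicator_nonneg (fun _ _ => zero_le_one) x)
  · unfold nind
    rw [I_smul, ind_I hA, inv_mul_cancel₀ hpos.ne']
  · filter_upwards [smul_ae (cl m (A.indicator fun _ => (1 : ℝ))) (m A).toReal⁻¹, ind_ae hA]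
      with x a1 a2 hx
    by_contra hxA
    apply hx
    unfold nind
    rw [a1, a2, indicator_of_notMem hxA, mul_zero]

theorem cc_int_meas {δ : ℝ} (hδ : 0 ≤ δ) (σ : M →ₘ[m] ℝ) (hσ : MemLp σ 1 m) :
    AEStronglyMeasurable (fun x => ∫ y, cc δ x y * σ y ∂m) m := by
  have hc : H886.Cost (cc δ : M → M → ℝ) δ (√(2 * δ)) := H886.cost_min (X := M) hδ
  have hcb : ∀ x y : M, |cc δ x y| ≤ δ := fun x y => by
    rw [abs_of_nonneg (hc.nonneg x y)]; exact hc.le x y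
  have hcm : ∀ x : M, AEStronglyMeasurable (fun y => cc δ x y) m := fun x => by
    have : Continuous (fun y => cc δ x y) := by unfold cc; fun_prop
    exact this.aestronglyMeasurable
  have hL : ∀ x x' : M, |∫ y, cc δ x y * σ y ∂m - ∫ y, cc δ x' y * σ y ∂m| ≤
      (√(2 * δ) * ∫ y, |σ y| ∂m) * dist x x' := by
    intro x x'
    rw [← integral_sub (int_test (hcm x) (hcb x) hσ) (int_test (hcm x') (hcb x') hσ)]
    refine (abs_integral_le_integral_abs).trans ?_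
    rw [mul_right_comm, ← integral_const_mul]
    refine integral_mono_ae ?_ ((int_of_mem hσ).abs.const_mul _) ?_
    · exact ((int_test (hcm x) (hcb x) hσ).sub (int_test (hcm x') (hcb x') hσ)).abs
    · refine Eventually.of_forall fun y => ?_
      show |cc δ x y * σ y - cc δ x' y * σ y| ≤ √(2 * δ) * dist x x' * |σ y|
      rw [← sub_mul, abs_mul]
      exact mul_le_mul_of_nonneg_right (hc.lip1 x x' y) (abs_nonneg _)
  have hcont : Continuous (fun x => ∫ y, cc δ x y * σ y ∂m) := by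
    have hL0 : 0 ≤ √(2 * δ) * ∫ y, |σ y| ∂m :=
      mul_nonneg (Real.sqrt_nonneg _) (integral_nonneg fun y => abs_nonneg _)
    have : LipschitzWith (√(2 * δ) * ∫ y, |σ y| ∂m).toNNReal
        (fun x => ∫ y, cc δ x y * σ y ∂m) := by
      refine LipschitzWith.of_dist_le_mul fun x x' => ?_
      rw [Real.coe_toNNReal _ hL0, Real.dist_eq]
      exact hL x x'
    exact this.continuous
  exact hcont.aestronglyMeasurable

/-- the limit `l → 0` in `OutC`, for one `δ` -/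
theorem step_l (hN : NSp m n K θ) [CompleteSpace M] [SecondCountableTopology M]
    (h2a : ∀ f : M →ₘ[m] ℝ, MemLp f 2 m → MemLp f 1 m →
      Tendsto (fun l => ∫ x, |((sob m).J l f - f) x| ∂m) (𝓝[>] 0) (𝓝 0))
    (h2b : ∀ h : M →ₘ[m] ℝ, 0 ≤ h → I h = 1 → MemLp h 1 m → MemLp h ∞ m → ∀ l : ℝ, 0 < l →
      CD m ((sob m).J l h) (l⁻¹ • ((sob m).J l h - h)))
    (hO : OutC m n K) {δ : ℝ} (hδ : Okd M K δ) {A A' : Set M} {h h' : M →ₘ[m] ℝ}
    (hh : IsNind m A h) (hh' : IsNind m A' h') {G : ℝ} (hG : ∀ x ∈ A, ∀ y ∈ A', cc δ x y ≤ G)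
    {φ ψ : M → ℝ} (hφ : BLip φ) (hψ : BLip ψ) (hadm : ∀ x y, φ x + ψ y ≤ cc δ x y) {p q t : ℝ}
    (hp : 0 ≤ p) (hq : 0 ≤ q) (ht : 0 ≤ t) :
    ∫ x, φ x * Q m (p * t) h x ∂m + ∫ y, ψ y * Q m (q * t) h' y ∂m ≤
      Real.exp (Cst n K δ p q * t) * G
        + n / 2 * (√p - √q) ^ 2 * t * Real.exp (max (Cst n K δ p q) 0 * t) := by
  have hC := hN.isDir
  have hδ0 : 0 ≤ δ := hδ.1.le
  have hc : H886.Cost (cc δ : M → M → ℝ) δ (√(2 * δ)) := H886.cost_min (X := M) hδ0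
  obtain ⟨⟨Lφ, hLφ⟩, b, hb⟩ := hφ
  obtain ⟨⟨Lψ, hLψ⟩, b', hb'⟩ := hψ
  have hφm : AEStronglyMeasurable φ m := hLφ.continuous.aestronglyMeasurable
  have hψm : AEStronglyMeasurable ψ m := hLψ.continuous.aestronglyMeasurable
  have hb0 : ∀ x : M, 0 ≤ b := fun x => (abs_nonneg _).trans (hb x)
  set E := n / 2 * (√p - √q) ^ 2 * t * Real.exp (max (Cst n K δ p q) 0 * t) with hE
  set ε : ℝ → ℝ := fun l => ∫ x, |((sob m).J l h - h) x| ∂m with hε
  set ε' : ℝ → ℝ := fun l => ∫ x, |((sob m).J l h' - h') x| ∂m with hε'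
  have l1 : Tendsto ε (𝓝[>] 0) (𝓝 0) := h2a h hh.m2 hh.m1
  have l2 : Tendsto ε' (𝓝[>] 0) (𝓝 0) := h2a h' hh'.m2 hh'.m1
  -- estimate for fixed `l`
  have key : ∀ l : ℝ, 0 < l → ∫ x, φ x * Q m (p * t) h x ∂m + ∫ y, ψ y * Q m (q * t) h' y ∂m ≤
      Real.exp (Cst n K δ p q * t) * (G + δ * (ε l + ε' l)) + E + (|b| * ε l + |b'| * ε' l) := by
    intro l hl
    have d1 := h2b h hh.nonneg hh.mass hh.m1 hh.mt l hl
    have d2 := h2b h' hh'.nonneg hh'.mass hh'.m1 hh'.mt l hl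
    have a0 := hO δ hδ _ _ _ _ d1 d2 φ ψ ⟨⟨Lφ, hLφ⟩, b, hb⟩ ⟨⟨Lψ, hLψ⟩, b', hb'⟩ hadm p q t hp hq ht
    have a1 : ∫ x, ∫ y, cc δ x y * ((sob m).J l h x * (sob m).J l h' y) ∂m ∂m ≤
        G + δ * (ε l + ε' l) := by
      refine dbl_le hδ0 (fun x y => hc.nonneg x y) (fun x y => hc.le x y) (fun x => ?_)
        (fun σ hσ => cc_int_meas hδ0 σ hσ) hh.m1 hh.nonneg hh.mass hh'.m1 hh'.nonneg hh'.mass
        hh.supp hh'.supp hG d1.m1 d1.nonneg d2.m1 d2.nonneg d2.mass le_rfl le_rfl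
      have : Continuous (fun y => cc δ x y) := by unfold cc; fun_prop
      exact this.aestronglyMeasurable
    have a2 := mul_le_mul_of_nonneg_left a1 (Real.exp_pos (Cst n K δ p q * t)).le
    -- testing
    have T : ∀ {χ : M → ℝ} {c r : ℝ} (hχ : AEStronglyMeasurable χ m) (hcχ : ∀ x, |χ x| ≤ c)
        (hr : 0 ≤ r) {k : M →ₘ[m] ℝ} (k1 : MemLp k 1 m) (k2 : MemLp k 2 m)
        (j1 : MemLp ((sob m).J l k) 1 m) (j2 : MemLp ((sob m).J l k) 2 m),
        ∫ x, χ x * Q m (r * t) k x ∂m ≤ ∫ x, χ x * Q m (r * t) ((sob m).J l k) x ∂m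
          + |c| * ∫ x, |((sob m).J l k - k) x| ∂m := by
      intro χ c r hχ hcχ hr k k1 k2 j1 j2
      have hrt : 0 ≤ r * t / 2 := by positivity
      have hcχ' : ∀ x, |χ x| ≤ |c| := fun x => (hcχ x).trans (le_abs_self c)
      have s1 := hC.P_L1 hrt k2 k1
      have s2 := hC.P_L1 hrt j2 j1
      have s3 := hC.P_L1 hrt (mem_sub j2 k2) (mem_sub j1 k1)
      have s4 := test_sub hχ hcχ' s2.1 s1.1
      rw [← hC.P_sub _ j2 k2] at s4
      have s5 := (abs_le.1 s4).1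
      have s6 := mul_le_mul_of_nonneg_left s3.2 (abs_nonneg c)
      unfold Q
      linarith
    have a3 := T hφm hb hp hh.m1 hh.m2 d1.m1 (hC.J_mem2 hl hh.m2)
    have a4 := T hψm hb' hq hh'.m1 hh'.m2 d2.m1 (hC.J_mem2 hl hh'.m2)
    simp only [hε, hε'] at a2 ⊢
    linarith
  have hlim : Tendsto (fun l => Real.exp (Cst n K δ p q * t) * (G + δ * (ε l + ε' l)) + E +
      (|b| * ε l + |b'| * ε' l)) (𝓝[>] 0)
      (𝓝 (Real.exp (Cst n K δ p q * t) * (G + δ * (0 + 0)) + E + (|b| * 0 + |b'| * 0))) :=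
    (((((l1.add l2).const_mul δ).const_add G).const_mul _).add_const E).add
      ((l1.const_mul _).add (l2.const_mul _))
  have h0 := ge_of_tendsto hlim (eventually_nhdsWithin_of_forall fun l hl => key l hl)
  simpa using h0

theorem cst_le {n : ℕ} {K δ p q : ℝ} (hδ : 0 < δ) :
    Cst n K δ p q ≤ n * √(p * q) / δ + Ci K p q := by
  unfold Cst Ci
  have : 0 ≤ n * √(p * q) / δ := div_nonneg (mul_nonneg (Nat.cast_nonneg n) (Real.sqrt_nonneg _)) hδ.le
  split_ifs <;> linarith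

theorem okd_eventually (h0 : 0 < K → ∃ R : ℝ, ∀ x y : M, dist x y ≤ R) :
    ∀ᶠ δ : ℝ in atTop, Okd M K δ := by
  rcases le_or_gt K 0 with hK | hK
  · filter_upwards [eventually_gt_atTop (0 : ℝ)] with δ hδ
    exact ⟨hδ, Or.inl hK⟩
  · obtain ⟨R, hR⟩ := h0 hK
    filter_upwards [eventually_gt_atTop (0 : ℝ), eventually_gt_atTop (R ^ 2 / 2)] with δ hδ h1
    refine ⟨hδ, Or.inr fun x y => ?_⟩
    unfold gg
    have : dist x y ^ 2 ≤ R ^ 2 := pow_le_pow_left₀ dist_nonneg (hR x y) 2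
    have e : dist y x = dist x y := dist_comm y x
    first
      | linarith
      | (rw [e]; linarith)

omit [BorelSpace M] in
theorem int_nind {A : Set M} {φ : M → ℝ} {g k : M →ₘ[m] ℝ} {a s : ℝ} (hk : k = a⁻¹ • g) :
    ∫ x, (s * φ x) * k x ∂m = s * ((∫ x, φ x * g x ∂m) / a) := by
  rw [hk, div_eq_inv_mul, ← integral_const_mul, ← integral_const_mul]
  refine integral_congr_ae ?_
  filter_upwards [smul_ae g a⁻¹] with x hx
  rw [hx]; ring

theorem k1s (hN : NSp m n K θ) [CompleteSpace M] [SecondCountableTopology M]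
    (h0 : 0 < K → ∃ R : ℝ, ∀ x y : M, dist x y ≤ R)
    (h2a : ∀ f : M →ₘ[m] ℝ, MemLp f 2 m → MemLp f 1 m →
      Tendsto (fun l => ∫ x, |((sob m).J l f - f) x| ∂m) (𝓝[>] 0) (𝓝 0))
    (h2b : ∀ h : M →ₘ[m] ℝ, 0 ≤ h → I h = 1 → MemLp h 1 m → MemLp h ∞ m → ∀ l : ℝ, 0 < l →
      CD m ((sob m).J l h) (l⁻¹ • ((sob m).J l h - h)))
    (hO : OutC m n K) : K1S m n K := by
  intro f B L hf A A' hA hA' hmA hmA' hbA hbA' D hD hdist p q t s hp hq ht hs
  have hC := hN.isDir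
  haveI := hN.proper
  have hfinS : ∀ S : Set M, m S ≠ 0 → Bornology.IsBounded S → m S ≠ ∞ := by
    intro S hS hSb
    obtain ⟨x, hx⟩ : S.Nonempty := by
      rw [nonempty_iff_ne_empty]; rintro rfl; exact hS measure_empty
    obtain ⟨r, hr⟩ := hSb.subset_ball x
    exact ((measure_mono hr).trans_lt (hN.fin x r)).ne
  have finA := hfinS A hmA hbA
  have finA' := hfinS A' hmA' hbA'
  have hh := nind_spec hA finA hmA
  have hh' := nind_spec hA' finA' hmA'
  have eh : Q m (p * t) (nind m A) =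
      (m A).toReal⁻¹ • Q m (p * t) (cl m (A.indicator fun _ => (1 : ℝ))) :=
    hC.P_smul _ _ (ind_mem hA finA 2)
  have eh' : Q m (q * t) (nind m A') =
      (m A').toReal⁻¹ • Q m (q * t) (cl m (A'.indicator fun _ => (1 : ℝ))) :=
    hC.P_smul _ _ (ind_mem hA' finA' 2)
  set X := (∫ x, H131.qq f s x * Q m (q * t) (cl m (A'.indicator fun _ => (1 : ℝ))) x ∂m) /
    (m A').toReal with hX
  set Y := (∫ x, f x * Q m (p * t) (cl m (A.indicator fun _ => (1 : ℝ))) x ∂m) / (m A).toReal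
    with hY
  set W : ℝ → ℝ := fun C => Real.exp (C * t) * (D ^ 2 / 2)
      + n / 2 * (√p - √q) ^ 2 * t * Real.exp (max C 0 * t) with hW
  have hWm : ∀ C C' : ℝ, C ≤ C' → W C ≤ W C' := by
    intro C C' h
    have b1 : Real.exp (C * t) ≤ Real.exp (C' * t) :=
      Real.exp_le_exp.2 (mul_le_mul_of_nonneg_right h ht)
    have b2 : Real.exp (max C 0 * t) ≤ Real.exp (max C' 0 * t) :=
      Real.exp_le_exp.2 (mul_le_mul_of_nonneg_right (max_le_max_right 0 h) ht)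
    have b3 : 0 ≤ n / 2 * (√p - √q) ^ 2 * t := by positivity
    simp only [hW]
    exact add_le_add (mul_le_mul_of_nonneg_right b1 (by positivity))
      (mul_le_mul_of_nonneg_left b2 b3)
  have hWc : Continuous W := by
    simp only [hW]
    fun_prop
  have hqq := hf.qq hs.le
  -- estimate for one `δ`
  have key : ∀ δ : ℝ, Okd M K δ → 2 * s * B ≤ δ → s * (X - Y) ≤ W (Cst n K δ p q) := by
    intro δ hδ hδB
    have a1 : BLip (fun x => (-s) * f x) := by
      refine ⟨⟨(s * L).toNNReal, LipschitzWith.of_dist_le_mul fun x y => ?_⟩, s * B, fun x => ?_⟩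
      · rw [Real.coe_toNNReal _ (mul_nonneg hs.le hf.L0), Real.dist_eq, ← mul_sub, abs_mul,
          abs_neg, abs_of_pos hs, mul_assoc]
        exact mul_le_mul_of_nonneg_left (hf.lip x y) hs.le
      · rw [abs_mul, abs_neg, abs_of_pos hs]
        exact mul_le_mul_of_nonneg_left (hf.bd x) hs.le
    have a2 : BLip (fun x => s * H131.qq f s x) := by
      refine ⟨⟨(s * (3 * L)).toNNReal, LipschitzWith.of_dist_le_mul fun x y => ?_⟩, s * B,
        fun x => ?_⟩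
      · rw [Real.coe_toNNReal _ (mul_nonneg hs.le hqq.L0), Real.dist_eq, ← mul_sub, abs_mul,
          abs_of_pos hs, mul_assoc]
        exact mul_le_mul_of_nonneg_left (hqq.lip x y) hs.le
      · rw [abs_mul, abs_of_pos hs]
        exact mul_le_mul_of_nonneg_left (hqq.bd x) hs.le
    have a3 : ∀ x y : M, (-s) * f x + s * H131.qq f s y ≤ cc δ x y := by
      intro x y
      unfold cc
      refine le_min ?_ ?_
      · have c1 := H131.qq_le hf hs y x
        have c2 := mul_le_mul_of_nonneg_left c1 hs.le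
        have c3 : s * (f x + dist y x ^ 2 / (2 * s)) = s * f x + dist x y ^ 2 / 2 := by
          rw [dist_comm y x]; field_simp
        linarith
      · have c1 := abs_le.1 (hf.bd x)
        have c2 := abs_le.1 (hqq.bd y)
        nlinarith [c1.1, c2.2]
    have a4 : ∀ x ∈ A, ∀ y ∈ A', cc δ x y ≤ D ^ 2 / 2 := by
      intro x hx y hy
      have c1 : dist x y ^ 2 ≤ D ^ 2 := pow_le_pow_left₀ dist_nonneg (hdist x hx y hy) 2
      exact (min_le_left _ _).trans (by linarith)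
    have a5 := step_l hN h2a h2b hO hδ hh hh' a4 a1 a2 a3 hp hq ht
    rw [int_nind (A := A) eh, int_nind (A := A') eh'] at a5
    refine le_trans (le_of_eq ?_) a5
    rw [hX, hY]; ring
  have hlim : Tendsto (fun δ : ℝ => W (n * √(p * q) / δ + Ci K p q)) atTop (𝓝 (W (Ci K p q))) := by
    refine (hWc.tendsto _).comp ?_
    have : Tendsto (fun δ : ℝ => n * √(p * q) / δ + Ci K p q) atTop (𝓝 (0 + Ci K p q)) :=
      (tendsto_const_nhds.div_atTop tendsto_id).add_const _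
    rwa [zero_add] at this
  have h1 : s * (X - Y) ≤ W (Ci K p q) := by
    refine ge_of_tendsto hlim ?_
    filter_upwards [okd_eventually (M := M) h0, eventually_ge_atTop (2 * s * B)] with δ d1 d2
    exact (key δ d1 d2).trans (hWm _ _ (cst_le d1.1))
  have h2 : s⁻¹ * (s * (X - Y)) ≤ s⁻¹ * W (Ci K p q) :=
    mul_le_mul_of_nonneg_left h1 (inv_nonneg.2 hs.le)
  rw [← mul_assoc, inv_mul_cancel₀ hs.ne', one_mul] at h2
  exact h2

end space

/-- Block K1S, from H0, H2a, H2b. -/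
theorem blk_K1S (h0 : Blk_H0.{u}) (h2a : Blk_H2a.{u}) (h2b : Blk_H2b.{u}) : Blk_K1S.{u} := by
  intro M _ _ _ _ _ m n K θ hN hO
  exact k1s hN (h0 M m n K θ hN) (fun f hf hf1 => (h2a M m n K θ hN f hf hf1).2)
    (h2b M m n K θ hN).2 hO

end Vale.Agent.P233.N2.H368.RK1
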